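import Vale.Agent.P323.Z.Step

/-!
# P323, sections 0-2: stages, pseudogroups, the functor `H`, invariant maps, tasks.

Maps are composed in the Mathlib order (`f ≫ g`, first `f`).
The definitions `IsPB`, `Thru`, `IsStage`, `SPG`, `STask` are those of `Z/Basic`, `Z/Step`.
-/

open CategoryTheory
open Vale.Agent.P323.Z

universe u

namespace Vale.Agent.P323.H652

set_option linter.unusedSectionVars false

/-- A stage: all maps mono, all cospans have pullbacks, a chain `a 0 → a 1 → ...`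
of maps which are not split epi, and every object receives a map from `a 0`. -/
class Stage (D : Type u) [Category.{u} D] where
  a : ℕ → D
  io : ∀ n, a n ⟶ a (n + 1)
  ax : IsStage D a io

/-- the class from the predicate -/
@[reducible] def Stage.of {S : Type u} [Category.{u} S] {a : ℕ → S} {ι : ∀ n, a n ⟶ a (n + 1)}
    (h : IsStage S a ι) : Stage S := ⟨a, ι, h⟩

section Basic
variable {D : Type u} [Category.{u} D] [Stage D]

theorem Stage.mono {x y : D} (f : x ⟶ y) : Mono f := Stage.ax.mono f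

theorem Stage.pb {x y z : D} (f : x ⟶ z) (g : y ⟶ z) :
    ∃ (e : D) (p : e ⟶ x) (q : e ⟶ y), IsPB p q f g := Stage.ax.pb f g

theorem Stage.io_ns (n : ℕ) : ¬ ∃ h : Stage.a (n + 1) ⟶ (Stage.a n : D), h ≫ Stage.io n = 𝟙 _ :=
  Stage.ax.ι_not n

theorem Stage.fromA (x : D) : Nonempty (Stage.a 0 ⟶ x) := Stage.ax.from_a0 x

theorem cancel {x y z : D} {f g : x ⟶ y} (m : y ⟶ z) (h : f ≫ m = g ≫ m) : f = g := by
  have := Stage.mono m
  exact (cancel_mono m).1 h

/-- it suffices to lift over the first projection. -/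
theorem IsPB.mk' {x y z e : D} {p : e ⟶ x} {q : e ⟶ y} {f : x ⟶ z} {g : y ⟶ z}
    (comm : p ≫ f = q ≫ g)
    (lift : ∀ {d : D} (u : d ⟶ x) (v : d ⟶ y), u ≫ f = v ≫ g → ∃ w : d ⟶ e, w ≫ p = u) :
    IsPB p q f g :=
  ⟨comm, fun u v huv => by
    obtain ⟨w, hw⟩ := lift u v huv
    refine ⟨w, hw, ?_⟩
    apply cancel g
    rw [Category.assoc, ← comm, ← Category.assoc, hw, huv]⟩

theorem IsPB.self {x y : D} (f : x ⟶ y) : IsPB (𝟙 x) (𝟙 x) f f :=
  IsPB.mk' rfl (fun u _ _ => ⟨u, Category.comp_id u⟩)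

theorem IsPB.fac {x y z : D} (f : x ⟶ y) (g : y ⟶ z) : IsPB (𝟙 x) f (f ≫ g) g :=
  IsPB.mk' (by simp) (fun u _ _ => ⟨u, Category.comp_id u⟩)

/-- postcomposing both legs with a map (mono). -/
theorem IsPB.post {x y z z' e : D} {p : e ⟶ x} {q : e ⟶ y} {f : x ⟶ z} {g : y ⟶ z}
    (h : IsPB p q f g) (m : z ⟶ z') : IsPB p q (f ≫ m) (g ≫ m) :=
  ⟨by rw [← Category.assoc, h.1, Category.assoc], fun u v huv => h.2 u v (by
    apply cancel m
    simpa using huv)⟩

namespace PG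
variable {b : D} {E : SPG D b}

theorem dom_left {d : D} {s t : d ⟶ b} (h : E.rel s t) : E.rel s s := by
  have := E.comp h (E.symm h) (IsPB.self t)
  simpa using this

theorem dom_right {d : D} {s t : d ⟶ b} (h : E.rel s t) : E.rel t t :=
  dom_left (E.symm h)

theorem restrict {d e : D} {s t : d ⟶ b} (h : E.rel s t) (g : e ⟶ d)
    (hg : E.rel (g ≫ s) (g ≫ s)) : E.rel (g ≫ s) (g ≫ t) := by
  have := E.comp hg h (IsPB.fac g s)
  simpa using this

theorem dom_inter {d d' e : D} {s : d ⟶ b} {s' : d' ⟶ b} {g : e ⟶ d} {g' : e ⟶ d'}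
    (h : E.rel s s) (h' : E.rel s' s') (hp : IsPB g g' s s') : E.rel (g ≫ s) (g ≫ s) := by
  have := E.comp h h' hp
  rw [← hp.1] at this
  exact this

end PG

/-- representatives of points of `H`. -/
structure Pre {b : D} (E : SPG D b) (x : D) where
  B : D
  A : B ⟶ b
  dom : E.rel A A
  v : B ⟶ x

namespace Pre
variable {b : D} {E : SPG D b} {x : D}

/-- the equivalence of representatives -/
def Eqv (p q : Pre E x) : Prop :=
  ∃ (e : D) (g : e ⟶ p.B) (g' : e ⟶ q.B), E.rel (g ≫ p.A) (g' ≫ q.A) ∧ g ≫ p.v = g' ≫ q.v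

theorem Eqv.refl (p : Pre E x) : Eqv p p :=
  ⟨p.B, 𝟙 _, 𝟙 _, by simpa using p.dom, rfl⟩

theorem Eqv.symm {p q : Pre E x} (h : Eqv p q) : Eqv q p := by
  obtain ⟨e, g, g', h1, h2⟩ := h
  exact ⟨e, g', g, E.symm h1, h2.symm⟩

theorem Eqv.trans {p q r : Pre E x} (h : Eqv p q) (h' : Eqv q r) : Eqv p r := by
  obtain ⟨e, g, g', h1, h2⟩ := h
  obtain ⟨e', k, k', h3, h4⟩ := h'
  obtain ⟨f, l, l', hl⟩ := Stage.pb g' k
  refine ⟨f, l ≫ g, l' ≫ k', ?_, ?_⟩
  · have := E.comp h1 h3 (IsPB.post hl q.A)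
    simpa using this
  · rw [Category.assoc, h2, Category.assoc, ← h4, ← Category.assoc, hl.1, Category.assoc]

instance setoid (E : SPG D b) (x : D) : Setoid (Pre E x) :=
  ⟨Eqv, Eqv.refl, Eqv.symm, Eqv.trans⟩

end Pre

/-- The functor `H_E : D → Sets`. -/
def H {b : D} (E : SPG D b) (x : D) : Type u := Quotient (Pre.setoid E x)

namespace H
variable {b : D} {E : SPG D b}

/-- the point `[A, v]` -/
def mk {x B : D} (A : B ⟶ b) (dom : E.rel A A) (v : B ⟶ x) : H E x :=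
  Quotient.mk _ ⟨B, A, dom, v⟩

theorem mk_eq {x B B' : D} {A : B ⟶ b} {dom : E.rel A A} {v : B ⟶ x}
    {A' : B' ⟶ b} {dom' : E.rel A' A'} {v' : B' ⟶ x} :
    (mk A dom v = mk A' dom' v') ↔ ∃ (e : D) (g : e ⟶ B) (g' : e ⟶ B'),
      E.rel (g ≫ A) (g' ≫ A') ∧ g ≫ v = g' ≫ v' := by
  constructor
  · intro h
    exact Quotient.exact h
  · intro h
    exact Quotient.sound h

theorem exists_rep {x : D} (ω : H E x) : ∃ (B : D) (A : B ⟶ b) (dom : E.rel A A) (v : B ⟶ x),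
    ω = mk A dom v := by
  obtain ⟨⟨B, A, dom, v⟩, rfl⟩ := Quotient.exists_rep ω
  exact ⟨B, A, dom, v, rfl⟩

/-- functoriality -/
def map {x y : D} (f : x ⟶ y) : H E x → H E y :=
  Quotient.map (fun p => ⟨p.B, p.A, p.dom, p.v ≫ f⟩) (by
    rintro p q ⟨e, g, g', h1, h2⟩
    exact ⟨e, g, g', h1, by simp only [← Category.assoc, h2]⟩)

@[simp] theorem map_mk {x y B : D} (A : B ⟶ b) (dom : E.rel A A) (v : B ⟶ x) (f : x ⟶ y) :
    map f (mk A dom v) = mk A dom (v ≫ f) := rfl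

@[simp] theorem map_id {x : D} (ω : H E x) : map (𝟙 x) ω = ω := by
  obtain ⟨B, A, dom, v, rfl⟩ := exists_rep ω
  simp

theorem map_map {x y z : D} (f : x ⟶ y) (g : y ⟶ z) (ω : H E x) :
    map g (map f ω) = map (f ≫ g) ω := by
  obtain ⟨B, A, dom, v, rfl⟩ := exists_rep ω
  simp

theorem map_inj {x y : D} (f : x ⟶ y) {ω ω' : H E x} (h : map f ω = map f ω') : ω = ω' := by
  obtain ⟨B, A, dom, v, rfl⟩ := exists_rep ω
  obtain ⟨B', A', dom', v', rfl⟩ := exists_rep ω'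
  rw [map_mk, map_mk, mk_eq] at h
  obtain ⟨e, g, g', h1, h2⟩ := h
  rw [mk_eq]
  exact ⟨e, g, g', h1, cancel f (by simpa using h2)⟩

/-- `H` preserves pullbacks. -/
theorem map_pb {x y z e : D} {p : e ⟶ x} {q : e ⟶ y} {f : x ⟶ z} {g : y ⟶ z}
    (h : IsPB p q f g) {ω : H E x} {ω' : H E y} (hω : map f ω = map g ω') :
    ∃ ω'' : H E e, map p ω'' = ω ∧ map q ω'' = ω' := by
  obtain ⟨B, A, dom, v, rfl⟩ := exists_rep ω
  obtain ⟨B', A', dom', v', rfl⟩ := exists_rep ω'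
  rw [map_mk, map_mk, mk_eq] at hω
  obtain ⟨c, k, k', h1, h2⟩ := hω
  obtain ⟨l, hl1, hl2⟩ := h.2 (k ≫ v) (k' ≫ v') (by simpa using h2)
  have hd : E.rel (k ≫ A) (k ≫ A) := PG.dom_left h1
  refine ⟨mk (k ≫ A) hd l, ?_, ?_⟩
  · rw [map_mk, hl1, mk_eq]
    exact ⟨c, 𝟙 _, k, by simpa using hd, by simp⟩
  · rw [map_mk, hl2, mk_eq]
    exact ⟨c, 𝟙 _, k', by simpa using h1, by simp⟩

/-- the point `[1,1]` -/
def pt (E : SPG D b) : H E b := mk (𝟙 b) E.one (𝟙 b)

theorem mk_self {d : D} (s : d ⟶ b) (hs : E.rel s s) : mk s hs s = pt E := by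
  unfold pt
  rw [mk_eq]
  exact ⟨d, 𝟙 _, s, by simpa using hs, by simp⟩

theorem mk_rel {d : D} {s t : d ⟶ b} (h : E.rel s t) : mk s (PG.dom_left h) t = pt E := by
  unfold pt
  rw [mk_eq]
  exact ⟨d, 𝟙 _, t, by simpa using h, by simp⟩

/-- `[A,v] = [1,1]` iff `(A,v) ∈ E` -/
theorem mk_eq_pt {d : D} {s t : d ⟶ b} {hs : E.rel s s} :
    mk s hs t = pt E ↔ E.rel s t := by
  constructor
  · intro h
    unfold pt at h
    rw [mk_eq] at h
    obtain ⟨e, g, g', h1, h2⟩ := h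
    simp only [Category.comp_id] at h1 h2
    rw [← h2] at h1
    exact E.up h1
  · intro h
    exact mk_rel h

end H

/-- `E`-invariant maps into `b` -/
def Inv {b d : D} (E : SPG D b) (v : d ⟶ b) : Prop :=
  ∀ {e : D} {s t : e ⟶ b}, E.rel s t → ∃ v' : d ⟶ e, v' ≫ s = v ∧ v' ≫ t = v

section app
variable {b d : D} {E : SPG D b} {v : d ⟶ b}

/-- application of a point of `H` to an invariant map -/
noncomputable def app (hv : Inv E v) {x : D} : H E x → (d ⟶ x) :=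
  Quotient.lift (fun p => (hv p.dom).choose ≫ p.v) (by
    rintro p q ⟨e, g, g', h1, h2⟩
    obtain ⟨v', hv1, hv2⟩ := hv h1
    have hp := (hv p.dom).choose_spec.1
    have hq := (hv q.dom).choose_spec.1
    have e1 : (hv p.dom).choose = v' ≫ g := by
      apply cancel p.A
      rw [hp, Category.assoc, hv1]
    have e2 : (hv q.dom).choose = v' ≫ g' := by
      apply cancel q.A
      rw [hq, Category.assoc, hv2]
    show (hv p.dom).choose ≫ p.v = (hv q.dom).choose ≫ q.v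
    rw [e1, e2, Category.assoc, Category.assoc, h2])

theorem app_mk (hv : Inv E v) {x B : D} (A : B ⟶ b) (dom : E.rel A A) (w : B ⟶ x)
    (vA : d ⟶ B) (h : vA ≫ A = v) : app hv (H.mk A dom w) = vA ≫ w := by
  have : (hv dom).choose = vA := by
    apply cancel A
    rw [h]
    exact (hv dom).choose_spec.1
  show (hv dom).choose ≫ w = vA ≫ w
  rw [this]

theorem app_map (hv : Inv E v) {x y : D} (f : x ⟶ y) (ω : H E x) :
    app hv (H.map f ω) = app hv ω ≫ f := by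
  obtain ⟨B, A, dom, w, rfl⟩ := H.exists_rep ω
  obtain ⟨vA, h, _⟩ := hv dom
  rw [H.map_mk, app_mk hv A dom _ vA h, app_mk hv A dom _ vA h, Category.assoc]

theorem app_pt (hv : Inv E v) : app hv (H.pt E) = v := by
  unfold H.pt
  rw [app_mk hv (𝟙 b) E.one (𝟙 b) v (by simp)]
  simp

end app

/-- tasks over the stage `D` -/
abbrev Task (D : Type u) [Category.{u} D] [Stage D] := STask D Stage.a Stage.io

theorem Task.inv' (τ : Task D) : Inv τ.E τ.γ := fun h => τ.inv h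

end Basic

end Vale.Agent.P323.H652
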