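import Vale.Agent.P323.H652.Words

/-!
# P323, section 3: pullbacks in the category of reduced words
-/

open CategoryTheory
open Vale.Agent.P323.Z

universe u

namespace Vale.Agent.P323.H652

set_option linter.unusedSectionVars false

section
variable {D : Type u} [Category.{u} D] [Stage D] {ι : Type u} {T : ι → Task D}

namespace W

theorem act_pb {x y z e : D} {p : e ⟶ x} {q : e ⟶ y} {f : x ⟶ z} {g : y ⟶ z}
    (h : IsPB p q f g) {d : D} {w : W T d x} {w' : W T d y} (hw : act f w = act g w') :
    ∃ w'' : W T d e, act p w'' = w ∧ act q w'' = w' := by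
  cases w with
  | old v =>
    cases w' with
    | old v' =>
      simp only [act_old, W.old.injEq] at hw
      obtain ⟨k, h1, h2⟩ := h.2 v v' hw
      exact ⟨old k, by simp [h1], by simp [h2]⟩
    | new i ω w' => simp at hw
  | new i ω w =>
    cases w' with
    | old v' => simp at hw
    | new i' ω' w' =>
      simp only [act_new, W.new.injEq] at hw
      obtain ⟨rfl, h1, h2⟩ := hw
      rw [heq_eq_eq] at h1 h2
      subst h2
      obtain ⟨ω'', h3, h4⟩ := H.map_pb h h1
      exact ⟨new i ω'' w, by simp [h3], by simp [h4]⟩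

/-- pullback of a word and an old map: either the word factors, or both projections are old. -/
theorem wpull {d b : D} (w : W T d b) (hw : Red w) {e : D} (f : e ⟶ b) :
    (∃ w2 : W T d e, w = act f w2) ∨
    (∃ (P : D) (p : P ⟶ d) (q : P ⟶ e), wcomp (old p) w = old (q ≫ f) ∧
      ∀ {c : D} (v : W T c d) (v' : W T c e), wcomp v w = act f v' →
        ∃ z : W T c P, act p z = v ∧ act q z = v') := by
  induction w generalizing e with
  | old g =>
    right
    obtain ⟨P, p, q, hpq⟩ := Stage.pb g f
    refine ⟨P, p, q, ?_, ?_⟩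
    · simp [hpq.1]
    · intro c v v' h
      exact act_pb hpq h
  | new i ω w ih =>
    by_cases h : ∃ ω', H.map f ω' = ω
    · left
      obtain ⟨ω', rfl⟩ := h
      exact ⟨new i ω' w, rfl⟩
    · right
      obtain ⟨P0, g, h0, hgh⟩ := Stage.pb (bet i ω) f
      rcases ih hw.1 (g ≫ (T i).α) with ⟨w2, hw2⟩ | ⟨P, p, q, h1, h2⟩
      · exact absurd ⟨act g w2, by rw [act_act]; exact hw2⟩ hw.2
      · refine ⟨P, p, q ≫ h0, ?_, ?_⟩
        · have h3 : (old (q ≫ g ≫ (T i).α) : W T P (T i).c) = act (T i).α (old (q ≫ g)) := by
            simp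
          rw [wcomp_new, h1, h3, mk_A, act_old, Category.assoc, hgh.1, Category.assoc]
        · intro c v v' h3
          rw [wcomp_new] at h3
          by_cases h4 : IsA i (wcomp v w)
          · obtain ⟨w', hw'⟩ := h4
            rw [hw', mk_A] at h3
            obtain ⟨w'', h5, h6⟩ := act_pb hgh h3
            obtain ⟨z, h7, h8⟩ := h2 v w'' (by rw [hw', ← h5, act_act])
            exact ⟨z, h7, by rw [← act_act, h8, h6]⟩
          · rw [mk_new _ _ _ h4] at h3
            exfalso
            cases v' with
            | old v' => simp at h3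
            | new j ω' v' =>
              simp only [act_new, W.new.injEq] at h3
              obtain ⟨rfl, h5, _⟩ := h3
              rw [heq_eq_eq] at h5
              exact h ⟨ω', h5.symm⟩

/-- the pullback of `w` and `α` when `w` is not of the form `α ∘ w2` -/
theorem wpull_A {i : ι} {d : D} (w : W T d (T i).c) (hw : Red w) (hA : ¬ IsA i w) :
    (∃ (P : D) (p : P ⟶ d) (q : P ⟶ Stage.a (T i).n), wcomp (old p) w = old (q ≫ (T i).α) ∧
      ∀ {c : D} (v : W T c d) (v' : W T c (Stage.a (T i).n)), wcomp v w = act (T i).α v' →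
        ∃ z : W T c P, act p z = v ∧ act q z = v') := by
  rcases wpull w hw (T i).α with h | h
  · exact absurd h hA
  · exact h

/-- all cospans of reduced words have pullbacks -/
theorem pull {d b : D} (w : W T d b) (hw : Red w) {d' : D} (w' : W T d' b) (hw' : Red w') :
    ∃ (P : D) (p : W T P d) (q : W T P d'), Red p ∧ Red q ∧ wcomp p w = wcomp q w' ∧
      ∀ {c : D} (v : W T c d) (v' : W T c d'), Red v → Red v' → wcomp v w = wcomp v' w' →
        ∃ z : W T c P, Red z ∧ wcomp z p = v ∧ wcomp z q = v' := by
  -- a word against an old map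
  have old_case : ∀ {d e b : D} (w : W T d b) (_ : Red w) (f : e ⟶ b),
      ∃ (P : D) (p : W T P d) (q : W T P e), Red p ∧ Red q ∧ wcomp p w = act f q ∧
      ∀ {c : D} (v : W T c d) (v' : W T c e), Red v → Red v' → wcomp v w = act f v' →
        ∃ z : W T c P, Red z ∧ wcomp z p = v ∧ wcomp z q = v' := by
    intro d e b w hw f
    rcases wpull w hw f with ⟨w2, rfl⟩ | ⟨P, p, q, h1, h2⟩
    · refine ⟨d, old (𝟙 d), w2, trivial, by simpa using hw, ?_, ?_⟩
      · exact id_wcomp _ (by simpa using hw)
      · intro c v v' hv _ h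
        refine ⟨v, hv, wcomp_id v, ?_⟩
        rw [wcomp_act] at h
        exact act_inj _ h
    · refine ⟨P, old p, old q, trivial, trivial, by rw [h1, act_old], ?_⟩
      intro c v v' hv _ h
      obtain ⟨z, hz1, hz2⟩ := h2 v v' h
      refine ⟨z, ?_, hz1, hz2⟩
      rw [← hz1, red_act] at hv
      exact hv
  induction w generalizing d' with
  | old f =>
    obtain ⟨P, p, q, hp, hq, h1, h2⟩ := old_case w' hw' f
    refine ⟨P, q, p, hq, hp, h1.symm, ?_⟩
    intro c v v' hv hv' h
    obtain ⟨z, hz, hz1, hz2⟩ := h2 v' v hv' hv h.symm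
    exact ⟨z, hz, hz2, hz1⟩
  | new i ω w ih =>
    cases w' with
    | old f =>
      obtain ⟨P, p, q, hp, hq, h1, h2⟩ := old_case (new i ω w) hw f
      exact ⟨P, p, q, hp, hq, h1, h2⟩
    | new i' ω' w' =>
      by_cases hsame : (⟨i, ω⟩ : Σ j, H (T j).E _) = ⟨i', ω'⟩
      · cases hsame
        obtain ⟨P, p, q, hp, hq, h1, h2⟩ := ih hw.1 w' hw'.1
        refine ⟨P, p, q, hp, hq, by rw [wcomp_new, wcomp_new, h1], ?_⟩
        intro c v v' hv hv' h
        exact h2 v v' hv hv' (mk_inj i ω h)
      · by_cases hx : ∃ ω1, H.map (bet i' ω') ω1 = ω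
        · -- the first word factors through the old map `bet i' ω'`
          obtain ⟨ω1, hω1⟩ := hx
          rcases wpull (new i' ω' w') hw' (bet i' ω') with ⟨w2, hw2⟩ | ⟨P, p, q, h1, h2⟩
          · exact absurd hw2.symm (act_bet_ne_new _ _ _ _)
          · obtain ⟨R, s, t, hs, ht, h3, h4⟩ := old_case (new i ω1 w) hw q
            have hx : (new i ω w : W T _ _) = act (bet i' ω') (new i ω1 w) := by
              rw [act_new, hω1]
            refine ⟨R, s, act p t, hs, by simpa using ht, ?_, ?_⟩
            · rw [hx, wcomp_act, h3]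
              have : wcomp (act p t) (new i' ω' w') = wcomp t (wcomp (old p) (new i' ω' w')) := by
                rw [← wcomp_assoc, wcomp_old]
              rw [this, h1, wcomp_old, act_act]
            · intro c v v' hv hv' h
              rw [hx, wcomp_act] at h
              obtain ⟨z, hz1, hz2⟩ := h2 v' _ h.symm
              have hz : Red z := by
                rw [← hz1, red_act] at hv'
                exact hv'
              obtain ⟨r, hr, hr1, hr2⟩ := h4 v z hv hz hz2.symm
              refine ⟨r, hr, hr1, ?_⟩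
              rw [wcomp_act, hr2, hz1]
        · by_cases hy : ∃ ω1, H.map (bet i ω) ω1 = ω'
          · obtain ⟨ω1, hω1⟩ := hy
            rcases wpull (new i ω w) hw (bet i ω) with ⟨w2, hw2⟩ | ⟨P, p, q, h1, h2⟩
            · exact absurd hw2.symm (act_bet_ne_new _ _ _ _)
            · obtain ⟨R, s, t, hs, ht, h3, h4⟩ := old_case (new i' ω1 w') hw' q
              have hx : (new i' ω' w' : W T _ _) = act (bet i ω) (new i' ω1 w') := by
                rw [act_new, hω1]
              refine ⟨R, act p t, s, by simpa using ht, hs, ?_, ?_⟩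
              · rw [hx, wcomp_act, h3]
                have : wcomp (act p t) (new i ω w) = wcomp t (wcomp (old p) (new i ω w)) := by
                  rw [← wcomp_assoc, wcomp_old]
                rw [this, h1, wcomp_old, act_act]
              · intro c v v' hv hv' h
                rw [hx, wcomp_act] at h
                obtain ⟨z, hz1, hz2⟩ := h2 v _ h
                have hz : Red z := by
                  rw [← hz1, red_act] at hv
                  exact hv
                obtain ⟨r, hr, hr1, hr2⟩ := h4 v' z hv' hz hz2.symm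
                refine ⟨r, hr, ?_, hr1⟩
                rw [wcomp_act, hr2, hz1]
          · -- neither: all common points are old/old
            obtain ⟨P1, p1, q1, h11, h12⟩ := wpull_A w hw.1 hw.2
            obtain ⟨P2, p2, q2, h21, h22⟩ := wpull_A w' hw'.1 hw'.2
            obtain ⟨P, p, q, hpq⟩ := Stage.pb (q1 ≫ bet i ω) (q2 ≫ bet i' ω')
            have e1 : (old (q1 ≫ (T i).α) : W T P1 (T i).c) = act (T i).α (old q1) := rfl
            have e2 : (old (q2 ≫ (T i').α) : W T P2 (T i').c) = act (T i').α (old q2) := rfl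
            have c1 : wcomp (old p1) (new i ω w) = old (q1 ≫ bet i ω) := by
              rw [wcomp_new, h11, e1, mk_A, act_old]
            have c2 : wcomp (old p2) (new i' ω' w') = old (q2 ≫ bet i' ω') := by
              rw [wcomp_new, h21, e2, mk_A, act_old]
            refine ⟨P, old (p ≫ p1), old (q ≫ p2), trivial, trivial, ?_, ?_⟩
            · have e3 : (old (p ≫ p1) : W T P _) = wcomp (old p) (old p1) := rfl
              have e4 : (old (q ≫ p2) : W T P _) = wcomp (old q) (old p2) := rfl
              rw [e3, e4, wcomp_assoc, wcomp_assoc, c1, c2]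
              simp [hpq.1]
            · intro c v v' hv hv' h
              rw [wcomp_new, wcomp_new] at h
              -- both words are of the form `α ∘ z`
              have key : ∃ z z', wcomp v w = act (T i).α z ∧ wcomp v' w' = act (T i').α z' := by
                by_cases h1 : IsA i (wcomp v w)
                · obtain ⟨z, hz⟩ := h1
                  by_cases h2 : IsA i' (wcomp v' w')
                  · obtain ⟨z', hz'⟩ := h2
                    exact ⟨z, z', hz, hz'⟩
                  · exfalso
                    rw [hz, mk_A, mk_new _ _ _ h2] at h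
                    cases z with
                    | old z => simp at h
                    | new j ω1 z =>
                      simp only [act_new, W.new.injEq] at h
                      obtain ⟨rfl, h3, _⟩ := h
                      rw [heq_eq_eq] at h3
                      exact hy ⟨ω1, h3⟩
                · by_cases h2 : IsA i' (wcomp v' w')
                  · exfalso
                    obtain ⟨z, hz⟩ := h2
                    rw [hz, mk_A, mk_new _ _ _ h1] at h
                    cases z with
                    | old z => simp at h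
                    | new j ω1 z =>
                      simp only [act_new, W.new.injEq] at h
                      obtain ⟨rfl, h3, _⟩ := h
                      rw [heq_eq_eq] at h3
                      exact hx ⟨ω1, h3.symm⟩
                  · exfalso
                    rw [mk_new _ _ _ h1, mk_new _ _ _ h2] at h
                    simp only [W.new.injEq] at h
                    obtain ⟨rfl, h3, _⟩ := h
                    rw [heq_eq_eq] at h3
                    exact hsame (by rw [h3])
              obtain ⟨z, z', hz, hz'⟩ := key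
              rw [hz, hz', mk_A, mk_A] at h
              obtain ⟨r1, hr1, hr2⟩ := h12 v z hz
              obtain ⟨r2, hr3, hr4⟩ := h22 v' z' hz'
              rw [← hr2, ← hr4, act_act, act_act] at h
              obtain ⟨r, hr5, hr6⟩ := act_pb hpq h
              refine ⟨r, ?_, ?_, ?_⟩
              · rw [← hr1, ← hr5, red_act, red_act] at hv
                exact hv
              · rw [wcomp_old, ← act_act, hr5, hr1]
              · rw [wcomp_old, ← act_act, hr6, hr3]

end W

namespace Ext

/-- the inclusion preserves pullbacks -/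
theorem inc_pb {x y z e : D} {p : e ⟶ x} {q : e ⟶ y} {f : x ⟶ z} {g : y ⟶ z}
    (h : IsPB p q f g) :
    IsPB (inc p : (⟨e⟩ : Ext T) ⟶ ⟨x⟩) (inc q) (inc f : (⟨x⟩ : Ext T) ⟶ ⟨z⟩) (inc g) := by
  refine ⟨by rw [← inc_comp, ← inc_comp, h.1], ?_⟩
  intro d v v' hv
  obtain ⟨w, h1, h2⟩ := W.act_pb h (congrArg EHom.w hv)
  have hw : W.Red w := by
    have := v.red
    rw [← h1, W.red_act] at this
    exact this
  exact ⟨⟨w, hw⟩, hom_ext h1, hom_ext h2⟩

/-- pullback of a morphism with an old one -/
theorem pull_inc {x : Ext T} {b : D} (v : x ⟶ ⟨b⟩) {e : D} (f : e ⟶ b) :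
    Thru v (inc f : (⟨e⟩ : Ext T) ⟶ ⟨b⟩) ∨
    ∃ (P : D) (p : P ⟶ x.of) (q : P ⟶ e),
      IsPB (inc p : (⟨P⟩ : Ext T) ⟶ x) (inc q : (⟨P⟩ : Ext T) ⟶ ⟨e⟩) v (inc f) := by
  rcases W.wpull v.w v.red f with ⟨w2, hw2⟩ | ⟨P, p, q, h1, h2⟩
  · left
    have : W.Red w2 := by
      have := v.red
      rw [hw2, W.red_act] at this
      exact this
    exact ⟨⟨w2, this⟩, hom_ext hw2.symm⟩
  · right
    refine ⟨P, p, q, hom_ext h1, ?_⟩
    intro c r r' hr
    obtain ⟨z, hz1, hz2⟩ := h2 r.w r'.w (congrArg EHom.w hr)
    have hz : W.Red z := by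
      have := r.red
      rw [← hz1, W.red_act] at this
      exact this
    exact ⟨⟨z, hz⟩, hom_ext hz1, hom_ext hz2⟩

theorem pull {x y z : Ext T} (f : x ⟶ z) (g : y ⟶ z) :
    ∃ (e : Ext T) (p : e ⟶ x) (q : e ⟶ y), IsPB p q f g := by
  obtain ⟨P, p, q, hp, hq, h1, h2⟩ := W.pull f.w f.red g.w g.red
  refine ⟨⟨P⟩, ⟨p, hp⟩, ⟨q, hq⟩, hom_ext h1, ?_⟩
  intro c v v' hv
  obtain ⟨r, hr, hr1, hr2⟩ := h2 v.w v'.w v.red v'.red (congrArg EHom.w hv)
  exact ⟨⟨r, hr⟩, hom_ext hr1, hom_ext hr2⟩

/-- `D[F]` is a stage -/
theorem isStage : IsStage (Ext T) (fun n => ⟨Stage.a n⟩) (fun n => inc (Stage.io n)) where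
  mono := ext_mono
  pb := pull
  ι_not := by
    rintro n ⟨h, hh⟩
    have h1 : Old (h ≫ (inc (Stage.io n) : (⟨Stage.a n⟩ : Ext T) ⟶ ⟨Stage.a (n + 1)⟩)) := by
      rw [hh]
      exact ⟨𝟙 _, rfl⟩
    obtain ⟨k, rfl⟩ := old_of_comp h1
    apply Stage.io_ns (D := D) n
    refine ⟨k, inc_inj (T := T) ?_⟩
    rw [inc_comp]
    exact hh
  from_a0 := by
    intro x
    obtain ⟨f⟩ := Stage.fromA x.of
    exact ⟨inc f⟩

end Ext

end

end Vale.Agent.P323.H652
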