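import Vale.Agent.P323.H652.PG

/-!
# P323, section 3: the category `D[F]` of reduced words.

`W T d x` = words from `d` to `x`, `Red` = reduced, `mk` = smart constructor, `wcomp v w` = first `v`
then `w`. `Ext T` = the category with the same objects and reduced words as morphisms.
-/

open CategoryTheory
open Vale.Agent.P323.Z

universe u

namespace Vale.Agent.P323.H652

set_option linter.unusedSectionVars false

section Words
variable {D : Type u} [Category.{u} D] [Stage D] {ι : Type u} (T : ι → Task D)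

/-- words -/
inductive W (d : D) : D → Type u
  | old {x : D} (v : d ⟶ x) : W d x
  | new {x : D} (i : ι) (ω : H (T i).E x) (w : W d (T i).c) : W d x

variable {T}

namespace W

/-- action of an old map on the target -/
def act {d x y : D} (f : x ⟶ y) : W T d x → W T d y
  | old v => old (v ≫ f)
  | new i ω w => new i (H.map f ω) w

@[simp] theorem act_old {d x y : D} (f : x ⟶ y) (v : d ⟶ x) :
    act f (old v : W T d x) = old (v ≫ f) := rfl

@[simp] theorem act_new {d x y : D} (f : x ⟶ y) (i : ι) (ω : H (T i).E x)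
    (w : W T d (T i).c) : act f (new i ω w) = new i (H.map f ω) w := rfl

@[simp] theorem act_id {d x : D} (w : W T d x) : act (𝟙 x) w = w := by
  cases w <;> simp

theorem act_act {d x y z : D} (f : x ⟶ y) (g : y ⟶ z) (w : W T d x) :
    act g (act f w) = act (f ≫ g) w := by
  cases w with
  | old v => simp
  | new i ω w => simp [H.map_map]

theorem act_inj {d x y : D} (f : x ⟶ y) {w w' : W T d x} (h : act f w = act f w') : w = w' := by
  cases w with
  | old v =>
    cases w' with
    | old v' =>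
      simp only [act_old, W.old.injEq] at h
      rw [cancel f h]
    | new i ω w' => simp at h
  | new i ω w =>
    cases w' with
    | old v' => simp at h
    | new i' ω' w' =>
      simp only [act_new, W.new.injEq] at h
      obtain ⟨rfl, h1, h2⟩ := h
      rw [heq_eq_eq] at h1 h2
      rw [H.map_inj f h1, h2]

/-- `w` is of the form `α ∘ w2` -/
def IsA (i : ι) {d : D} (w : W T d (T i).c) : Prop := ∃ w2 : W T d (Stage.a (T i).n), w = act (T i).α w2

/-- reduced words -/
def Red {d : D} : {x : D} → W T d x → Prop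
  | _, old _ => True
  | _, new i _ w => Red w ∧ ¬ IsA i w

@[simp] theorem red_old {d x : D} (v : d ⟶ x) : Red (old v : W T d x) := trivial

@[simp] theorem red_new {d x : D} (i : ι) (ω : H (T i).E x) (w : W T d (T i).c) :
    Red (new i ω w) ↔ Red w ∧ ¬ IsA i w := Iff.rfl

@[simp] theorem red_act {d x y : D} (f : x ⟶ y) (w : W T d x) : Red (act f w) ↔ Red w := by
  cases w <;> simp

/-- `ω β : a n ⟶ x` -/
noncomputable def bet (i : ι) {x : D} (ω : H (T i).E x) : Stage.a (T i).n ⟶ x :=
  Stage.io _ ≫ app (T i).inv' ω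

theorem bet_map (i : ι) {x y : D} (f : x ⟶ y) (ω : H (T i).E x) :
    bet i (H.map f ω) = bet i ω ≫ f := by
  unfold bet
  rw [app_map (T i).inv', Category.assoc]

theorem bet_pt (i : ι) : bet i (H.pt (T i).E) = Stage.io _ ≫ (T i).γ := by
  unfold bet
  rw [app_pt (T i).inv']

open Classical in
/-- smart constructor -/
noncomputable def mk (i : ι) {d x : D} (ω : H (T i).E x) (w : W T d (T i).c) : W T d x :=
  if h : IsA i w then act (bet i ω) h.choose else new i ω w

theorem mk_A (i : ι) {d x : D} (ω : H (T i).E x) (w : W T d (Stage.a (T i).n)) :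
    mk i ω (act (T i).α w) = act (bet i ω) w := by
  have h : IsA i (act (T i).α w) := ⟨w, rfl⟩
  unfold mk
  rw [dif_pos h]
  congr 1
  exact (act_inj (T i).α h.choose_spec).symm

theorem mk_new (i : ι) {d x : D} (ω : H (T i).E x) (w : W T d (T i).c) (h : ¬ IsA i w) :
    mk i ω w = new i ω w := by
  unfold mk
  rw [dif_neg h]

theorem act_mk (i : ι) {d x y : D} (f : x ⟶ y) (ω : H (T i).E x) (w : W T d (T i).c) :
    act f (mk i ω w) = mk i (H.map f ω) w := by
  by_cases h : IsA i w
  · obtain ⟨w2, rfl⟩ := h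
    rw [mk_A, mk_A, act_act, bet_map]
  · rw [mk_new _ _ _ h, mk_new _ _ _ h, act_new]

theorem red_mk (i : ι) {d x : D} (ω : H (T i).E x) (w : W T d (T i).c) (hw : Red w) :
    Red (mk i ω w) := by
  by_cases h : IsA i w
  · obtain ⟨w2, rfl⟩ := h
    rw [mk_A]
    simpa using hw
  · rw [mk_new _ _ _ h]
    exact ⟨hw, h⟩

/-- composition of words: first `v`, then `w`. -/
noncomputable def wcomp {e d : D} (v : W T e d) : {x : D} → W T d x → W T e x
  | _, old f => act f v
  | _, new i ω w => mk i ω (wcomp v w)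

@[simp] theorem wcomp_old {e d x : D} (v : W T e d) (f : d ⟶ x) :
    wcomp v (old f) = act f v := rfl

@[simp] theorem wcomp_new {e d x : D} (v : W T e d) (i : ι) (ω : H (T i).E x)
    (w : W T d (T i).c) : wcomp v (new i ω w) = mk i ω (wcomp v w) := rfl

theorem wcomp_act {e d x y : D} (v : W T e d) (f : x ⟶ y) (w : W T d x) :
    wcomp v (act f w) = act f (wcomp v w) := by
  cases w with
  | old u => simp [act_act]
  | new i ω w => simp [act_mk]

theorem wcomp_mk {e d x : D} (v : W T e d) (i : ι) (ω : H (T i).E x) (w : W T d (T i).c) :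
    wcomp v (mk i ω w) = mk i ω (wcomp v w) := by
  by_cases h : IsA i w
  · obtain ⟨w2, rfl⟩ := h
    rw [mk_A, wcomp_act, wcomp_act, mk_A]
  · rw [mk_new _ _ _ h, wcomp_new]

theorem wcomp_assoc {f e d x : D} (v : W T f e) (w : W T e d) (z : W T d x) :
    wcomp (wcomp v w) z = wcomp v (wcomp w z) := by
  induction z with
  | old u => simp [wcomp_act]
  | new i ω z ih => simp [ih, wcomp_mk]

@[simp] theorem wcomp_id {d x : D} (w : W T d x) : wcomp w (old (𝟙 x)) = w := by simp

theorem id_wcomp {d x : D} (w : W T d x) (hw : Red w) : wcomp (old (𝟙 d)) w = w := by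
  induction w with
  | old u => simp
  | new i ω w ih =>
    rw [wcomp_new, ih hw.1, mk_new _ _ _ hw.2]

theorem red_wcomp {e d x : D} (v : W T e d) (w : W T d x) (hv : Red v) : Red (wcomp v w) := by
  induction w with
  | old u => simpa using hv
  | new i ω w ih => exact red_mk _ _ _ ih

/-- `β` is never split. -/
theorem split1 (i : ι) {x : D} (ω : H (T i).E x) (ω1 : H (T i).E (Stage.a (T i).n)) :
    ω ≠ H.map (bet i ω) ω1 := by
  intro h
  apply Stage.io_ns (D := D) (T i).n
  refine ⟨app (T i).inv' ω1, ?_⟩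
  apply cancel (app (T i).inv' ω)
  have h2 : app (T i).inv' ω = app (T i).inv' ω1 ≫ bet i ω := by
    rw [← app_map, ← h]
  rw [Category.id_comp, Category.assoc]
  exact h2.symm

/-- two-sided version -/
theorem split2 (i i' : ι) {x : D} (ω : H (T i).E x) (ω' : H (T i').E x)
    (ω1 : H (T i).E (Stage.a (T i').n)) (ω1' : H (T i').E (Stage.a (T i).n))
    (h : ω = H.map (bet i' ω') ω1) (h' : ω' = H.map (bet i ω) ω1') : False := by
  apply Stage.io_ns (D := D) (T i).n
  refine ⟨app (T i).inv' ω1 ≫ Stage.io _ ≫ app (T i').inv' ω1', ?_⟩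
  apply cancel (app (T i).inv' ω)
  have h2 : app (T i).inv' ω = app (T i).inv' ω1 ≫ bet i' ω' := by
    rw [← app_map, ← h]
  have h3 : app (T i').inv' ω' = app (T i').inv' ω1' ≫ bet i ω := by
    rw [← app_map, ← h']
  have h4 : bet i' ω' = Stage.io _ ≫ app (T i').inv' ω1' ≫ bet i ω := by
    rw [← h3]; rfl
  rw [Category.id_comp]
  conv_rhs => rw [h2, h4]
  simp [bet]

theorem act_bet_ne_new (i : ι) {d x : D} (ω : H (T i).E x) (w2 : W T d (Stage.a (T i).n))
    (w' : W T d (T i).c) : act (bet i ω) w2 ≠ new i ω w' := by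
  intro h
  cases w2 with
  | old v => simp at h
  | new j ω1 w3 =>
    simp only [act_new, W.new.injEq] at h
    obtain ⟨rfl, h1, _⟩ := h
    rw [heq_eq_eq] at h1
    exact split1 _ ω ω1 h1.symm

theorem mk_inj (i : ι) {d x : D} (ω : H (T i).E x) {w w' : W T d (T i).c}
    (h : mk i ω w = mk i ω w') : w = w' := by
  by_cases h1 : IsA i w
  · obtain ⟨w2, rfl⟩ := h1
    by_cases h2 : IsA i w'
    · obtain ⟨w2', rfl⟩ := h2
      rw [mk_A, mk_A] at h
      rw [act_inj _ h]
    · rw [mk_A, mk_new _ _ _ h2] at h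
      exact absurd h (act_bet_ne_new _ _ _ _)
  · by_cases h2 : IsA i w'
    · obtain ⟨w2', rfl⟩ := h2
      rw [mk_A, mk_new _ _ _ h1] at h
      exact absurd h.symm (act_bet_ne_new _ _ _ _)
    · rw [mk_new _ _ _ h1, mk_new _ _ _ h2] at h
      simpa using h

/-- all words are mono -/
theorem wcomp_inj {e d x : D} {v v' : W T e d} (w : W T d x)
    (h : wcomp v w = wcomp v' w) : v = v' := by
  induction w with
  | old u => exact act_inj u h
  | new i ω w ih => exact ih (mk_inj i ω h)

end W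

/-! ### The category `Ext T` -/

/-- objects of `D[F]` (the same as those of `D`). -/
structure Ext (T : ι → Task D) : Type u where
  of : D

/-- morphisms of `D[F]` : reduced words. -/
@[ext]
structure EHom (T : ι → Task D) (d x : Ext T) : Type u where
  w : W T d.of x.of
  red : W.Red w

noncomputable instance : Category.{u} (Ext T) where
  Hom d x := EHom T d x
  id d := ⟨W.old (𝟙 d.of), trivial⟩
  comp v w := ⟨W.wcomp v.w w.w, W.red_wcomp _ _ v.red⟩
  id_comp w := by
    apply EHom.ext
    exact W.id_wcomp _ w.red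
  comp_id w := by
    apply EHom.ext
    exact W.wcomp_id _
  assoc v w z := by
    apply EHom.ext
    exact W.wcomp_assoc _ _ _

namespace Ext

theorem hom_ext {d x : Ext T} {v w : d ⟶ x} (h : v.w = w.w) : v = w := EHom.ext h

theorem comp_w {d x y : Ext T} (v : d ⟶ x) (w : x ⟶ y) : (v ≫ w).w = W.wcomp v.w w.w := rfl

theorem id_w {d : Ext T} : (𝟙 d : d ⟶ d).w = W.old (𝟙 d.of) := rfl

/-- old morphisms -/
def inc {x y : D} (f : x ⟶ y) : (⟨x⟩ : Ext T) ⟶ ⟨y⟩ := ⟨W.old f, trivial⟩

@[simp] theorem inc_w {x y : D} (f : x ⟶ y) : (inc f : (⟨x⟩ : Ext T) ⟶ ⟨y⟩).w = W.old f := rfl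

theorem inc_comp {x y z : D} (f : x ⟶ y) (g : y ⟶ z) :
    (inc (f ≫ g) : (⟨x⟩ : Ext T) ⟶ ⟨z⟩) = inc f ≫ inc g := by
  apply hom_ext
  rw [comp_w, inc_w, inc_w, inc_w]
  simp

theorem inc_id {x : D} : (inc (𝟙 x) : (⟨x⟩ : Ext T) ⟶ ⟨x⟩) = 𝟙 _ := rfl

theorem inc_inj {x y : D} {f g : x ⟶ y} (h : (inc f : (⟨x⟩ : Ext T) ⟶ ⟨y⟩) = inc g) : f = g := by
  have := congrArg EHom.w h
  simpa using this

theorem comp_inc_w {d : Ext T} {x y : D} (v : d ⟶ ⟨x⟩) (f : x ⟶ y) :
    (v ≫ inc f).w = W.act f v.w := rfl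

theorem ext_mono {x y : Ext T} (f : x ⟶ y) : Mono f :=
  ⟨fun _ _ h => hom_ext (W.wcomp_inj f.w (congrArg EHom.w h))⟩

/-- a morphism is old -/
def Old {x y : Ext T} (f : x ⟶ y) : Prop := ∃ g : x.of ⟶ y.of, f = inc g

/-- (E3) -/
theorem old_of_comp {x y : Ext T} {b : D} {w : x ⟶ y} {f : y.of ⟶ b}
    (h : Old (w ≫ (inc f : y ⟶ ⟨b⟩))) : Old w := by
  obtain ⟨g, hg⟩ := h
  have h1 : W.act f w.w = W.old g := congrArg EHom.w hg
  rcases w with ⟨w, hw⟩
  cases w with
  | old v => exact ⟨v, rfl⟩
  | new i ω w => simp at h1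

end Ext

end Words

end Vale.Agent.P323.H652
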